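import Vale.Agent.P083.Main2

/-!
# P083 : the embedding is implemented by a sequence of unital star-homomorphisms into `O₂`
Same proofs as in `Main2`, stopped one step earlier.
-/

open Filter Topology
open scoped InnerProductSpace ComplexOrder

set_option linter.unusedSectionVars false
set_option linter.style.haveILetI false

namespace Vale.Agent.P083V

open Vale.Agent.P083

universe u

/-- From the key lemma to an asymptotically isometric sequence of unital star-homomorphisms. -/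
lemma seq_of_norm_ge {A B : Type*} [CStarAlgebra A] [CStarAlgebra B] {ι : Type*} [Countable ι]
    (v : ι → A) (hgen : (StarAlgebra.adjoin ℂ (Set.range v)).topologicalClosure = ⊤)
    {s₁ s₂ : B} (h : IsCuntzPair s₁ s₂)
    (hkey : ∀ a₀ ∈ StarAlgebra.adjoin ℂ (Set.range v), ∃ φ : A →⋆ₐ[ℂ] B, ‖a₀‖ ≤ ‖φ a₀‖) :
    ∃ ψ : ℕ → (A →⋆ₐ[ℂ] B), ∀ a : A, Tendsto (fun n => ‖ψ n a‖) atTop (𝓝 ‖a‖) := by
  haveI : TopologicalSpace.SeparableSpace A :=
    separableSpace_of_gen (Set.countable_range v) hgen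
  have hdense : Dense ((StarAlgebra.adjoin ℂ (Set.range v) : StarSubalgebra ℂ A) : Set A) := by
    have := congrArg (fun S : StarSubalgebra ℂ A => (S : Set A)) hgen
    rw [dense_iff_closure_eq]
    simpa [StarSubalgebra.topologicalClosure_coe] using this
  have hres : ∀ a : A, ∀ ε : ℝ, 0 < ε → ∃ φ : A →⋆ₐ[ℂ] B, ‖a‖ - ε ≤ ‖φ a‖ := by
    intro a ε hε
    obtain ⟨a₀, ha₀, hd⟩ := hdense.exists_dist_lt a (show 0 < ε / 2 by positivity)
    obtain ⟨φ, hφ⟩ := hkey a₀ ha₀
    refine ⟨φ, ?_⟩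
    rw [dist_eq_norm] at hd
    have h1 : ‖φ a₀‖ ≤ ‖φ a‖ + ‖a - a₀‖ := by
      have e : φ a₀ = φ a - φ (a - a₀) := by rw [map_sub]; abel
      rw [e]
      refine (norm_sub_le _ _).trans ?_
      gcongr
      exact NonUnitalStarAlgHom.norm_apply_le _ _
    have h2 : ‖a‖ ≤ ‖a₀‖ + ‖a - a₀‖ := by
      have := norm_add_le a₀ (a - a₀)
      simpa using this
    linarith
  exact exists_seq_of_residual h hres

theorem universal_cuntzType_algebra_seq {ι G : Type*} [Fintype ι] [DecidableEq G]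
    (grp : ι → G) (full : G → Prop) (A : Type u) [CStarAlgebra A] (v : ι → A)
    (hA : IsUniversalCuntzTypeAlgebra grp full A v) (B : Type u) [CStarAlgebra B]
    (hB : IsCuntzO2 B) :
    ∃ ψ : ℕ → (A →⋆ₐ[ℂ] B), ∀ a : A, Tendsto (fun n => ‖ψ n a‖) atTop (𝓝 ‖a‖) := by
  classical
  obtain ⟨hBn, s₁, s₂, h, -⟩ := hB
  haveI : Nontrivial A := by
    obtain ⟨w, hw⟩ := exists_cuntzTypeFamily h grp full
    obtain ⟨φ, -⟩ := hA.univ B w hw
    by_contra hcon
    rw [not_nontrivial_iff_subsingleton] at hcon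
    have h1 : (1 : B) = 0 := by
      rw [← map_one φ, Subsingleton.elim (1 : A) 0, map_zero]
    exact one_ne_zero h1
  refine seq_of_norm_ge v hA.gen h (fun a₀ ha₀ => ?_)
  refine exists_hom_norm_ge_of_realization v ?_ ha₀
  intro H _ _ _ π F _
  obtain ⟨W, T, hW1, hW2, hW3, hTn, hWT⟩ := exists_realization₂ (B := B) h grp full
    (fun i => π (v i))
    (fun i x y => by
      rw [inner_map_map_of_star_mul, ← map_star, ← map_mul, hA.rel.iso, map_one]; rfl)
    (fun i j hij hg x y => by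
      rw [inner_map_map_of_star_mul, ← map_star, ← map_mul, hA.rel.orth i j hij hg, map_zero]
      simp)
    (fun i hi x => by
      have h1 := congrArg (fun a => π a x) (hA.rel.sum_eq i hi)
      simp only [map_sum, map_mul, map_star, map_one] at h1
      rw [ContinuousLinearMap.sum_apply] at h1
      simpa [ContinuousLinearMap.star_eq_adjoint] using h1) F
  obtain ⟨φ, hφ⟩ := hA.univ B W ⟨hW1, hW2, hW3⟩
  refine ⟨φ, T, hTn, ?_⟩
  intro i x hx
  obtain ⟨h1, h2⟩ := hWT i x hx
  refine ⟨by rw [hφ]; exact h1, ?_⟩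
  rw [map_star, hφ, map_star, ContinuousLinearMap.star_eq_adjoint]
  exact h2

end Vale.Agent.P083V
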